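import Vale.Agent.P329.Clock

/-! Counting the arrows of a cyclic automaton of prime order. -/

namespace Vale.Agent.P329
open Classical

variable {A : Type}

/-- All residues of `f` have fibres of height at most one. -/
def FnM (f : List A → ℕ) : Prop := ∀ N : ℕ, N ≠ 0 → Fn 1 fun w => (f w : ZMod N)

variable {f g h : List A → ℕ}

theorem FnM.add (hf : FnM f) (hg : FnM g) : FnM fun w => f w + g w := fun N hN => by
  haveI : NeZero N := ⟨hN⟩
  refine ((hf N hN).prod (hg N hN)).of_det fun w w' e => ?_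
  obtain ⟨e1, e2⟩ := Prod.mk.inj e
  simp only [Nat.cast_add, e1, e2]

theorem FnM.cancel {m : ℕ} (hm : m ≠ 0) (hg : FnM g) (hh : FnM h) (e : ∀ w, m * f w + g w = h w) :
    FnM f := fun N hN => by
  haveI : NeZero (m * N) := ⟨mul_ne_zero hm hN⟩
  refine ((hg _ (mul_ne_zero hm hN)).prod (hh _ (mul_ne_zero hm hN))).of_det fun w w' e' => ?_
  obtain ⟨e1, e2⟩ := Prod.mk.inj e'
  rw [← e w, ← e w', Nat.cast_add, Nat.cast_add, e1, add_left_inj, ZMod.natCast_eq_natCast_iff] at e2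
  exact (ZMod.natCast_eq_natCast_iff _ _ _).2 (Nat.ModEq.mul_left_cancel' hm e2)

theorem fnM_of_fn {X : Type} [Finite X] {s : List A → X} (hs : Fn 1 s) (F : X → ℕ) :
    FnM fun w => F (s w) := fun _ _ => hs.of_det fun _ _ e => by simp only [e]

theorem fnM_const (m : ℕ) : FnM fun _ : List A => m := fun _ _ _ => ht_const _

theorem fnM_sum {ι : Type} (s : Finset ι) {F : ι → List A → ℕ} (hF : ∀ i ∈ s, FnM (F i)) :
    FnM fun w => ∑ i ∈ s, F i w := by
  induction s using Finset.induction_on with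
  | empty => simpa using fnM_const 0
  | insert a s ha ih =>
    simpa only [Finset.sum_insert ha] using (hF a (Finset.mem_insert_self _ _)).add
      (ih fun i hi => hF i (Finset.mem_insert_of_mem hi))

theorem FnM.mul (hf : FnM f) (m : ℕ) : FnM fun w => m * f w := by
  simpa using fnM_sum (Finset.range m) fun _ _ => hf

theorem FnM.congr (hf : FnM f) (e : ∀ w, f w = g w) : FnM g := funext e ▸ hf

variable [Finite A] {p : ℕ} [Fact p.Prime] (ρ : A → ZMod p) (c₀ : ZMod p × Option A)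

theorem fnM_tick (b : ZMod p) (π : Option A → A → Prop) (Z : A → Prop)
    (h1 : ∀ y z y' z', π y z → π y' z' → z = z') (h2 : ∀ z, ¬ π (some z) z) :
    FnM (cnt (tm ρ) (tick ρ b π Z) c₀) := fun N hN => by
  haveI : NeZero N := ⟨hN⟩
  refine (fn_clk ρ b π Z N h1 h2 c₀).of_det fun w w' e => ?_
  simpa only [(nm_tm ρ b π Z _ c₀).1] using (Prod.mk.inj e).2

theorem fn_tm : Fn 1 fun w : List A => w.foldl (tm ρ) c₀ := by
  refine (Fn.pi fun b : ZMod p => fn_clk ρ b (fun _ _ => False) (fun _ => False) 1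
    (fun _ _ _ _ h => h.elim) (fun _ h => h) c₀).of_det fun w w' e => ?_
  have e' := (Prod.mk.inj (congrFun e ((w.foldl (tm ρ) c₀).1 + 1))).1
  have h1 := (nm_tm ρ ((w.foldl (tm ρ) c₀).1 + 1) (fun _ _ => False) (fun _ => False) w c₀).2
  have h2 := (nm_tm ρ ((w.foldl (tm ρ) c₀).1 + 1) (fun _ _ => False) (fun _ => False) w' c₀).2
  have h3 : (w.foldl (nm ρ ((w.foldl (tm ρ) c₀).1 + 1)) c₀).1 ≠ (w.foldl (tm ρ) c₀).1 + 1 := by
    rw [h1.1]; simp
  exact Prod.ext (by rw [← h1.1, e', h2.1]) (by rw [← h1.2 h3, e', h2.2 (e' ▸ h3)])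

theorem fnM_pi (b : ZMod p) (π : Option A → A → Prop)
    (h1 : ∀ y z y' z', π y z → π y' z' → z = z') (h2 : ∀ z, ¬ π (some z) z) :
    FnM (cnt (tm ρ) (fun c a => if c.1 + ρ a = b ∧ ρ a ≠ 0 ∧ π c.2 a then 1 else 0) c₀) := by
  refine FnM.cancel one_ne_zero (fnM_tick ρ c₀ b π (fun _ => False) h1 h2)
    (fnM_tick ρ c₀ b (fun _ _ => False) (fun _ => False) (fun _ _ _ _ h => h.elim) fun _ h => h)
    fun w => ?_
  rw [one_mul, ← cnt_add]
  congr 1
  funext c a
  unfold tick
  by_cases e1 : c.1 + ρ a = b <;> by_cases e2 : ρ a = 0 <;> by_cases e3 : π c.2 a <;>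
    simp [e1, e2, e3]

/-- The number of times the letter `a` is read at the state `q`. -/
noncomputable def arr (a : A) (q : ZMod p) : List A → ℕ :=
  cnt (tm ρ) (fun c x => if x = a ∧ c.1 = q then 1 else 0) c₀

theorem fnM_arr0 {a : A} (h : ρ a = 0) (q : ZMod p) : FnM (arr ρ c₀ a q) := by
  refine FnM.cancel one_ne_zero
    (fnM_tick ρ c₀ q (fun _ _ => False) (fun _ => False) (fun _ _ _ _ h => h.elim) fun _ h => h)
    (fnM_tick ρ c₀ q (fun _ _ => False) (· = a) (fun _ _ _ _ h => h.elim) fun _ h => h)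
    fun w => ?_
  rw [one_mul, arr, ← cnt_add]
  congr 1
  funext c x
  unfold tick
  by_cases e1 : x = a
  · by_cases e2 : c.1 = q <;> simp [e1, e2, h]
  · simp [e1]

omit [Finite A] in
theorem cnt_count {C : Type} (nx : C → A → C) (a : A) (c : C) (w : List A) :
    cnt nx (fun _ x => if x = a then 1 else 0) c w = w.count a := by
  induction w generalizing c with
  | nil => rfl
  | cons x w ih => rw [cnt, ih, List.count_cons, add_comm]; simp

theorem fnM_count (a : A) : FnM fun w : List A => w.count a := by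
  haveI : Fact (Nat.Prime 2) := ⟨Nat.prime_two⟩
  refine (fnM_arr0 (fun _ => (0 : ZMod 2)) (0, none) (a := a) rfl 0).congr fun w => ?_
  rw [← cnt_count (fun (_ : Unit) _ => ()) a (), arr]
  exact (cnt_rel _ _ (fun c _ => c.1 = 0) (fun c _ _ h => by simp [tm, h])
    (fun c _ x h => by simp [h]) w rfl).1

omit [Finite A] in
theorem cnt_pot {C : Type} (nx : C → A → C) {f g : C → A → ℕ} (Φ : C → ℕ)
    (h : ∀ c x, f c x + Φ c = g c x + Φ (nx c x)) (c : C) (w : List A) :
    cnt nx f c w + Φ c = cnt nx g c w + Φ (w.foldl nx c) := by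
  induction w generalizing c with
  | nil => rfl
  | cons x w ih =>
    have h1 := ih (nx c x)
    have h2 := h c x
    simp only [cnt, List.foldl_cons]
    omega

theorem arr_shift {a : A} (h : ρ a ≠ 0) (q : ZMod p) : ∃ U U' : List A → ℕ, FnM U ∧ FnM U' ∧
    ∀ w, arr ρ c₀ a q w + U w = arr ρ c₀ a (q + ρ a) w + U' w := by
  haveI := Fintype.ofFinite A
  let Φ : ZMod p × Option A → ℕ := fun c => if c.1 = q + ρ a ∧ c.2 = some a then 1 else 0
  refine ⟨_, _, FnM.add (fnM_pi ρ c₀ (q + ρ a + ρ a) (fun y z => z = a ∧ y ≠ some a)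
    (fun _ _ _ _ h h' => h.1.trans h'.1.symm) fun z h => h.2 (by rw [h.1])) (fnM_const (Φ c₀)),
    FnM.add (fnM_sum Finset.univ fun z _ => fnM_pi ρ c₀ (q + ρ a + ρ z)
      (fun y x => x = z ∧ y = some a ∧ z ≠ a) (fun _ _ _ _ h h' => h.1.trans h'.1.symm)
      fun x h => h.2.2 (h.1.symm.trans (Option.some.inj h.2.1))) (fnM_of_fn (fn_tm ρ c₀) Φ),
    fun w => ?_⟩
  unfold arr
  rw [← cnt_sum, ← add_assoc, ← add_assoc, ← cnt_add, ← cnt_add]
  refine cnt_pot _ Φ (fun c x => ?_) c₀ w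
  rw [Finset.sum_eq_single x (fun z _ hz => by simp [hz.symm]) (by simp)]
  obtain ⟨s, y⟩ := c
  by_cases e1 : x = a
  · by_cases e2 : s = q + ρ a <;> by_cases e3 : y = some a <;> simp [Φ, tm, e1, e2, e3, h]
  · by_cases e2 : ρ x = 0 <;> simp [Φ, tm, e1, e2]

theorem fnM_arr (a : A) (q : ZMod p) : FnM (arr ρ c₀ a q) := by
  by_cases h : ρ a = 0
  · exact fnM_arr0 ρ c₀ h q
  have key : ∀ j : ℕ, ∃ U U' : List A → ℕ, FnM U ∧ FnM U' ∧
      ∀ w, arr ρ c₀ a q w + U w = arr ρ c₀ a (q + j * ρ a) w + U' w := by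
    intro j
    induction j with
    | zero => exact ⟨_, _, fnM_const 0, fnM_const 0, fun w => by simp⟩
    | succ j ih =>
      obtain ⟨U, U', h1, h2, e⟩ := ih
      obtain ⟨V, V', h3, h4, e'⟩ := arr_shift ρ c₀ h (q + j * ρ a)
      refine ⟨_, _, h1.add h3, h2.add h4, fun w => ?_⟩
      have e1 := e w
      have e2 := e' w
      rw [show q + ((j + 1 : ℕ) : ZMod p) * ρ a = q + j * ρ a + ρ a by push_cast; ring]
      omega
  choose U U' h1 h2 e using key
  refine FnM.cancel (Fact.out : p.Prime).ne_zero (fnM_sum Finset.univ fun j : ZMod p => fun _ =>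
    h1 j.val) ((fnM_count a).add (fnM_sum Finset.univ fun j : ZMod p => fun _ => h2 j.val))
    fun w => ?_
  have : ∑ j : ZMod p, arr ρ c₀ a (q + j * ρ a) w = w.count a := by
    unfold arr
    rw [← cnt_sum, ← cnt_count (tm ρ) a c₀]
    congr 1
    funext c x
    rw [Finset.sum_eq_single ((c.1 - q) / ρ a)
      (fun j _ hj => if_neg fun h' => hj (by rw [h'.2]; field_simp; ring)) (by simp)]
    simp [div_mul_cancel₀ _ h]
  rw [← this, ← Finset.sum_add_distrib]
  have e2 : ∀ j : ZMod p, arr ρ c₀ a (q + j * ρ a) w + U' j.val w = arr ρ c₀ a q w + U j.val w :=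
    fun j => by rw [e, ZMod.natCast_zmod_val]
  simp only [e2, Finset.sum_add_distrib, Finset.sum_const, Finset.card_univ, ZMod.card,
    smul_eq_mul]

end Vale.Agent.P329
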