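import Vale.Agent.P329.Defs

/-! Closure properties of the languages of generalized star height at most `k`. -/

namespace Vale.Agent.P329
open Classical

variable {A : Type} {k : ℕ}

/-- The predicate `L` on words is denoted by an expression of star height at most `k`. -/
def Ht (k : ℕ) (L : List A → Prop) : Prop := ∃ E : GRE A, E.sh ≤ k ∧ ∀ w, w ∈ E.lang ↔ L w

variable {L L' : List A → Prop}

theorem Ht.congr (h : Ht k L) (e : ∀ w, L w ↔ L' w) : Ht k L' :=
  h.imp fun _ h => ⟨h.1, fun w => (h.2 w).trans (e w)⟩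

theorem Ht.mono {k' : ℕ} (h : Ht k L) (e : k ≤ k') : Ht k' L :=
  h.imp fun _ h => ⟨h.1.trans e, h.2⟩

theorem ht_false : Ht k fun _ : List A => False := ⟨.zero, Nat.zero_le _, fun _ => Iff.rfl⟩

theorem ht_nil : Ht k fun w : List A => w = [] := ⟨.one, Nat.zero_le _, fun _ => Iff.rfl⟩

theorem ht_letter (a : A) : Ht k fun w : List A => w = [a] :=
  ⟨.letter a, Nat.zero_le _, fun _ => Iff.rfl⟩

theorem Ht.not (h : Ht k L) : Ht k fun w => ¬ L w :=
  h.elim fun E h => ⟨.compl E, h.1, fun w => not_congr (h.2 w)⟩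

theorem Ht.or (h : Ht k L) (h' : Ht k L') : Ht k fun w => L w ∨ L' w :=
  h.elim fun E h => h'.elim fun E' h' =>
    ⟨.union E E', max_le h.1 h'.1, fun w => or_congr (h.2 w) (h'.2 w)⟩

theorem Ht.and (h : Ht k L) (h' : Ht k L') : Ht k fun w => L w ∧ L' w :=
  (h.not.or h'.not).not.congr fun _ => by tauto

theorem ht_const (p : Prop) : Ht k fun _ : List A => p := by
  by_cases h : p
  · exact ht_false.not.congr fun _ => by simp [h]
  · exact ht_false.congr fun _ => by simp [h]

theorem Ht.cat (h : Ht k L) (h' : Ht k L') : Ht k fun w => ∃ u v, L u ∧ L' v ∧ w = u ++ v :=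
  h.elim fun E h => h'.elim fun E' h' => ⟨.concat E E', max_le h.1 h'.1, fun w => by
    refine Language.mem_mul.trans ⟨?_, ?_⟩
    · rintro ⟨u, hu, v, hv, rfl⟩
      exact ⟨u, v, (h.2 u).1 hu, (h'.2 v).1 hv, rfl⟩
    · rintro ⟨u, v, hu, hv, rfl⟩
      exact ⟨u, (h.2 u).2 hu, v, (h'.2 v).2 hv, rfl⟩⟩

theorem Ht.star (h : Ht k L) :
    Ht (k + 1) fun w => ∃ S : List (List A), w = S.flatten ∧ ∀ y ∈ S, L y :=
  h.elim fun E h => ⟨.star E, Nat.succ_le_succ h.1, fun w => by
    refine Language.mem_kstar.trans ?_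
    simp only [h.2]⟩

theorem ht_exists_mem {ι : Type} (s : Finset ι) {F : ι → List A → Prop} (h : ∀ i ∈ s, Ht k (F i)) :
    Ht k fun w => ∃ i ∈ s, F i w := by
  induction s using Finset.induction_on with
  | empty => exact ht_false.congr fun _ => by simp
  | insert a s _ ih =>
    exact ((h a (Finset.mem_insert_self _ _)).or
      (ih fun i hi => h i (Finset.mem_insert_of_mem hi))).congr fun _ => by simp

theorem ht_exists {ι : Type} [Finite ι] {F : ι → List A → Prop} (h : ∀ i, Ht k (F i)) :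
    Ht k fun w => ∃ i, F i w := by
  haveI := Fintype.ofFinite ι
  exact (ht_exists_mem Finset.univ fun i _ => h i).congr fun _ => by simp

theorem ht_forall {ι : Type} [Finite ι] {F : ι → List A → Prop} (h : ∀ i, Ht k (F i)) :
    Ht k fun w => ∀ i, F i w :=
  (ht_exists fun i => (h i).not).not.congr fun _ => by simp

theorem ht_over [Finite A] (B : Finset A) : Ht k fun w : List A => ∀ a ∈ w, a ∈ B := by
  refine (ht_exists fun a : A => (ht_const (a ∉ B)).and ((ht_const True).cat
    ((ht_letter a).cat (ht_const True)))).not.congr fun w => ⟨fun h a ha => ?_, ?_⟩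
  · by_contra hB
    obtain ⟨u, v, rfl⟩ := List.append_of_mem ha
    exact h ⟨a, hB, u, a :: v, trivial, ⟨[a], v, rfl, trivial, rfl⟩, rfl⟩
  · rintro h ⟨a, hB, u, _, _, ⟨_, v, rfl, _, rfl⟩, rfl⟩
    exact hB (h a (by simp))

/-- All fibres of `f` have height at most `k`. -/
def Fn (k : ℕ) {X : Type} (f : List A → X) : Prop := ∀ x, Ht k fun w => f w = x

theorem Fn.ht {X : Type} [Finite X] {f : List A → X} (h : Fn k f) (p : X → Prop) :
    Ht k fun w => p (f w) :=
  (ht_exists fun x => (ht_const (p x)).and (h x)).congr fun w =>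
    ⟨fun ⟨_, h1, h2⟩ => h2 ▸ h1, fun h => ⟨_, h, rfl⟩⟩

theorem Fn.of_det {X Y : Type} [Finite X] {f : List A → X} (h : Fn k f) {g : List A → Y}
    (e : ∀ w w', f w = f w' → g w = g w') : Fn k g := fun y =>
  (h.ht fun x => ∃ w', f w' = x ∧ g w' = y).congr fun w =>
    ⟨fun ⟨w', h1, h2⟩ => (e w' w h1).symm.trans h2, fun h => ⟨w, rfl, h⟩⟩

theorem Fn.pi {ι : Type} [Finite ι] {X : ι → Type} {f : ∀ i, List A → X i} (h : ∀ i, Fn k (f i)) :
    Fn k fun w i => f i w := fun x =>
  (ht_forall fun i => h i (x i)).congr fun _ => funext_iff.symm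

theorem Fn.prod {X Y : Type} {f : List A → X} {g : List A → Y} (h : Fn k f) (h' : Fn k g) :
    Fn k fun w => (f w, g w) := fun x =>
  ((h x.1).and (h' x.2)).congr fun w => (Prod.ext_iff (x := (f w, g w))).symm

end Vale.Agent.P329
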