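import Vale.Agent.P329.Star

/-! Counting returns to a base state of a cyclic automaton of prime order. -/

namespace Vale.Agent.P329
open Classical

variable {A : Type}

/-- Weighted count of the transitions of a run. -/
def cnt {C : Type} (nx : C → A → C) (f : C → A → ℕ) : C → List A → ℕ
  | _, [] => 0
  | c, a :: w => f c a + cnt nx f (nx c a) w

section
variable {C : Type} (nx : C → A → C)

theorem cnt_append (f : C → A → ℕ) (c : C) (u v : List A) :
    cnt nx f c (u ++ v) = cnt nx f c u + cnt nx f (u.foldl nx c) v := by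
  induction u generalizing c with
  | nil => simp [cnt]
  | cons a u ih => simp [cnt, ih, add_assoc]

theorem cnt_add (f g : C → A → ℕ) (c : C) (w : List A) :
    cnt nx (fun c a => f c a + g c a) c w = cnt nx f c w + cnt nx g c w := by
  induction w generalizing c with
  | nil => rfl
  | cons a w ih => simp only [cnt, ih]; ring

theorem cnt_mul (m : ℕ) (f : C → A → ℕ) (c : C) (w : List A) :
    cnt nx (fun c a => m * f c a) c w = m * cnt nx f c w := by
  induction w generalizing c with
  | nil => rfl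
  | cons a w ih => simp only [cnt, ih]; ring

theorem cnt_sum {ι : Type} (s : Finset ι) (f : ι → C → A → ℕ) (c : C) (w : List A) :
    cnt nx (fun c a => ∑ i ∈ s, f i c a) c w = ∑ i ∈ s, cnt nx (f i) c w := by
  induction w generalizing c with
  | nil => simp [cnt]
  | cons a w ih => simp only [cnt, ih, Finset.sum_add_distrib]

theorem cnt_rel {C' : Type} (nx' : C' → A → C') (r : C → C' → Prop)
    (h : ∀ c c' a, r c c' → r (nx c a) (nx' c' a)) {f : C → A → ℕ} {f' : C' → A → ℕ}
    (e : ∀ c c' a, r c c' → f c a = f' c' a) (w : List A) {c : C} {c' : C'} (hr : r c c') :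
    cnt nx f c w = cnt nx' f' c' w ∧ r (w.foldl nx c) (w.foldl nx' c') := by
  induction w generalizing c c' with
  | nil => exact ⟨rfl, hr⟩
  | cons a w ih => exact ⟨by rw [cnt, cnt, e c c' a hr, (ih (h c c' a hr)).1], (ih (h c c' a hr)).2⟩

end

variable {p : ℕ} [Fact p.Prime] (ρ : A → ZMod p)

/-- State and last letter of nonzero weight. -/
noncomputable def tm (c : ZMod p × Option A) (a : A) : ZMod p × Option A :=
  (c.1 + ρ a, if ρ a = 0 then c.2 else some a)

/-- The same with the memory erased at the base state. -/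
noncomputable def nm (b : ZMod p) (c : ZMod p × Option A) (a : A) : ZMod p × Option A :=
  if c.1 + ρ a = b then (b, none) else tm ρ c a

/-- The counted arrivals at the base state. -/
noncomputable def tick (b : ZMod p) (π : Option A → A → Prop) (Z : A → Prop)
    (c : ZMod p × Option A) (a : A) : ℕ :=
  if c.1 + ρ a = b ∧ (ρ a = 0 → Z a) ∧ (ρ a ≠ 0 → ¬ π c.2 a) then 1 else 0

variable (b : ZMod p) (π : Option A → A → Prop) (Z : A → Prop)

theorem nm_fst (c : ZMod p × Option A) (a : A) : (nm ρ b c a).1 = c.1 + ρ a := by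
  unfold nm; split_ifs with h
  · exact h.symm
  · rfl

theorem foldl_nm_fst (w : List A) (c : ZMod p × Option A) :
    (w.foldl (nm ρ b) c).1 = c.1 + (w.map ρ).sum := by
  induction w generalizing c with
  | nil => simp
  | cons a w ih => simp [ih, nm_fst, add_assoc]

theorem sum_wp (w : List A) (n : ℕ) : ((wp w n).map ρ).sum = n * (w.map ρ).sum := by
  induction n with
  | zero => simp [wp]
  | succ n ih => simp [wp, ih, add_mul]

theorem nm_eq {w : List A} {c c' : ZMod p × Option A} (h : c.1 = c'.1)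
    (h' : ∃ a ∈ w, ρ a ≠ 0 ∨ c.1 = b) : w.foldl (nm ρ b) c = w.foldl (nm ρ b) c' := by
  induction w generalizing c c' with
  | nil => simp at h'
  | cons a w ih =>
    by_cases h1 : ρ a ≠ 0 ∨ c.1 = b
    · have : nm ρ b c a = nm ρ b c' a := by
        by_cases h0 : ρ a = 0
        · have hb := h1.resolve_left (not_not.2 h0)
          simp [nm, h0, ← h, hb]
        · simp [nm, tm, h0, h]
      rw [List.foldl_cons, List.foldl_cons, this]
    · obtain ⟨x, hx, h2⟩ := h'
      refine ih (by rw [nm_fst, nm_fst, h]) ⟨x, ?_, Or.inl (h2.resolve_right fun e => h1 (Or.inr e))⟩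
      exact (List.mem_cons.1 hx).resolve_left fun e => h1 (e ▸ h2)

theorem nm_fix {w : List A} {c : ZMod p × Option A} (h : ∀ a ∈ w, ρ a = 0) (hb : c.1 ≠ b) :
    w.foldl (nm ρ b) c = c := by
  induction w with
  | nil => rfl
  | cons a w ih =>
    have : nm ρ b c a = c := by simp [nm, tm, h a List.mem_cons_self, hb]
    rw [List.foldl_cons, this, ih fun x hx => h x (List.mem_cons_of_mem _ hx)]

theorem nm_mem {z : A} {w : List A} {c : ZMod p × Option A} (h : ∀ a ∈ w, ρ a ≠ 0 → a = z)
    (h' : (c.1 ≠ b → c.2 = some z) ∨ ∃ a ∈ w, ρ a ≠ 0) (hb : (w.foldl (nm ρ b) c).1 ≠ b) :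
    (w.foldl (nm ρ b) c).2 = some z := by
  induction w generalizing c with
  | nil => exact (h'.resolve_right (by simp)) hb
  | cons a w ih =>
    refine ih (fun x hx => h x (List.mem_cons_of_mem _ hx)) ?_ hb
    by_cases h0 : ρ a = 0
    · rcases h' with h' | ⟨x, hx, h'⟩
      · refine Or.inl fun h1 => ?_
        rw [nm_fst, h0, add_zero] at h1
        simp [nm, tm, h0, h1, h' h1]
      · exact Or.inr ⟨x, (List.mem_cons.1 hx).resolve_left fun e => h' (e ▸ h0), h'⟩
    · refine Or.inl fun h1 => ?_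
      rw [nm_fst] at h1
      simp [nm, tm, h0, h1, ← h a List.mem_cons_self h0]

variable (N : ℕ)

/-- The clock automaton. -/
noncomputable def clk (q : (ZMod p × Option A) × ZMod N) (a : A) : (ZMod p × Option A) × ZMod N :=
  (nm ρ b q.1 a, q.2 + tick ρ b π Z q.1 a)

theorem foldl_clk (w : List A) (c : ZMod p × Option A) (x : ZMod N) :
    w.foldl (clk ρ b π Z N) (c, x) =
      (w.foldl (nm ρ b) c, x + cnt (nm ρ b) (tick ρ b π Z) c w) := by
  induction w generalizing c x with
  | nil => simp [cnt]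
  | cons a w ih => simp [clk, ih, cnt, add_assoc]

theorem alive_clk {w : List A} {c : ZMod p × Option A} {x : ZMod N}
    (h : Alive (clk ρ b π Z N) ((b, none), 0) (c, x) w) {j : ℕ} (h1 : 1 ≤ j)
    (h2 : j ≤ cnt (nm ρ b) (tick ρ b π Z) c w) : x + j ≠ 0 := by
  induction w generalizing c x j with
  | nil => simp only [cnt] at h2; omega
  | cons a w ih =>
    rw [cnt] at h2
    by_cases ht : c.1 + ρ a = b ∧ (ρ a = 0 → Z a) ∧ (ρ a ≠ 0 → ¬ π c.2 a)
    · have e : tick ρ b π Z c a = 1 := if_pos ht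
      obtain ⟨h3, h4⟩ := h
      simp only [clk, e, Nat.cast_one] at h3 h4
      obtain ⟨j, rfl⟩ : ∃ k, j = k + 1 := ⟨j - 1, by omega⟩
      rcases Nat.eq_zero_or_pos j with rfl | hj
      · intro h0
        exact h3 (Prod.ext (if_pos ht.1) (by simpa using h0))
      · have := ih h4 hj (by omega)
        push_cast
        rwa [add_comm (j : ZMod N), ← add_assoc]
    · have e : tick ρ b π Z c a = 0 := if_neg ht
      obtain ⟨_, h4⟩ := h
      simp only [clk, e, Nat.cast_zero, add_zero] at h4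
      exact ih h4 h1 (by omega)

theorem fn_clk [Finite A] [NeZero N] (h1 : ∀ y z y' z', π y z → π y' z' → z = z')
    (h2 : ∀ z, ¬ π (some z) z) (c₀ : ZMod p × Option A) : Fn 1 fun w : List A =>
      (w.foldl (nm ρ b) c₀, (cnt (nm ρ b) (tick ρ b π Z) c₀ w : ZMod N)) := by
  refine (fn_one (clk ρ b π Z N) ((b, none), 0) ?_ (c₀, 0)).of_det fun w w' e => by
    simpa only [foldl_clk, zero_add] using e
  rintro w ⟨c, x⟩ n ha e
  rw [foldl_clk] at e
  obtain ⟨e1, e2⟩ := Prod.mk.inj e
  have k0 : cnt (nm ρ b) (tick ρ b π Z) c (wp w (n + 1)) = 0 := by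
    by_contra hk
    have hd := Nat.le_of_dvd (Nat.pos_of_ne_zero hk)
      ((ZMod.natCast_eq_zero_iff _ N).1 (add_eq_left.1 e2))
    have hx := ZMod.val_lt x
    refine alive_clk ρ b π Z N ha (j := N - x.val) (by omega) (by omega) ?_
    rw [Nat.cast_sub hx.le]; simp
  have k1 : ∀ m, cnt (nm ρ b) (tick ρ b π Z) c (wp w (m * (n + 1))) = 0 ∧
      (wp w (m * (n + 1))).foldl (nm ρ b) c = c := by
    intro m
    induction m with
    | zero => simp [wp, cnt]
    | succ m ih => rw [add_mul, one_mul, wp_add, cnt_append, List.foldl_append, ih.1, ih.2, k0, e1]; simp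
  have k2 : ∀ j, cnt (nm ρ b) (tick ρ b π Z) c (wp w j) = 0 := fun j => by
    have := (k1 j).1
    rw [mul_add, mul_one, add_comm, wp_add, cnt_append] at this
    omega
  have k3 : cnt (nm ρ b) (tick ρ b π Z) c w = 0 := by simpa [wp] using k2 1
  rw [foldl_clk, k3, Nat.cast_zero, add_zero]
  refine Prod.ext ?_ rfl
  by_cases ht : (w.map ρ).sum = 0
  · by_cases h3 : ∃ a ∈ w, ρ a ≠ 0 ∨ c.1 = b
    · rw [wp, List.foldl_append] at e1
      exact (nm_eq ρ b (by rw [foldl_nm_fst, sum_wp, ht]; simp) h3).trans e1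
    · push Not at h3
      rcases w with _ | ⟨a, w⟩
      · rfl
      · exact nm_fix ρ b (fun x hx => (h3 x hx).1) (h3 a List.mem_cons_self).2
  · exfalso
    have key : ∀ a ∈ w, ρ a ≠ 0 → ∃ W : List A, (∀ x ∈ W, x ∈ w) ∧ a ∈ W ∧
        (W.foldl (nm ρ b) c).1 ≠ b ∧ π (W.foldl (nm ρ b) c).2 a := by
      intro a haw h0
      obtain ⟨u, v, e⟩ := List.append_of_mem haw
      obtain ⟨i, hi⟩ : ∃ i : ℕ, c.1 + ((i + 1 : ℕ) * (w.map ρ).sum + (u.map ρ).sum) + ρ a = b :=
        ⟨((b - c.1 - (u.map ρ).sum - ρ a) / (w.map ρ).sum - 1).val, by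
          push_cast
          rw [ZMod.natCast_zmod_val, sub_add_cancel, div_mul_cancel₀ _ ht]; ring⟩
      have h4 : ((wp w (i + 1) ++ u).foldl (nm ρ b) c).1 + ρ a = b := by
        rw [foldl_nm_fst, List.map_append, List.sum_append, sum_wp, hi]
      refine ⟨wp w (i + 1) ++ u, fun x hx => (List.mem_append.1 hx).elim mem_wp fun h => by
        simp [e, h], by simp [wp, haw], fun h => h0 (by rwa [h, add_eq_left] at h4), ?_⟩
      have h5 := k2 (i + 1 + 1)
      rw [wp] at h5
      nth_rewrite 2 [e] at h5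
      rw [← List.append_assoc, cnt_append, cnt] at h5
      by_contra h6
      have : tick ρ b π Z ((wp w (i + 1) ++ u).foldl (nm ρ b) c) a = 1 :=
        if_pos ⟨h4, fun h => absurd h h0, fun _ => h6⟩
      omega
    obtain ⟨a, haw, h0⟩ : ∃ a ∈ w, ρ a ≠ 0 := by
      by_contra h
      push Not at h
      exact ht (List.sum_eq_zero fun x hx => by
        obtain ⟨a, ha, rfl⟩ := List.mem_map.1 hx
        exact h a ha)
    obtain ⟨W, hW, haW, h3, h4⟩ := key a haw h0
    rw [nm_mem ρ b (z := a) (fun x hx hx0 => ?_) (Or.inr ⟨a, haW, h0⟩) h3] at h4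
    · exact h2 a h4
    · obtain ⟨_, _, _, _, h5⟩ := key x (hW x hx) hx0
      exact h1 _ _ _ _ h5 h4

theorem nm_tm (w : List A) (c : ZMod p × Option A) :
    cnt (nm ρ b) (tick ρ b π Z) c w = cnt (tm ρ) (tick ρ b π Z) c w ∧
      (w.foldl (nm ρ b) c).1 = (w.foldl (tm ρ) c).1 ∧
      ((w.foldl (nm ρ b) c).1 ≠ b → (w.foldl (nm ρ b) c).2 = (w.foldl (tm ρ) c).2) := by
  refine cnt_rel (nm ρ b) (tm ρ) (fun c c' => c.1 = c'.1 ∧ (c.1 ≠ b → c.2 = c'.2))
    (fun c c' a h => ⟨by rw [nm_fst, h.1]; rfl, fun hb => ?_⟩) (fun c c' a h => ?_) w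
    ⟨rfl, fun _ => rfl⟩
  · rw [nm_fst] at hb
    by_cases h0 : ρ a = 0
    · rw [h0, add_zero] at hb
      simp [nm, tm, h0, hb, h.2 hb]
    · simp [nm, tm, h0, hb]
  · unfold tick
    refine if_congr ?_ rfl rfl
    rw [← h.1]
    refine and_congr_right fun h3 => and_congr_right fun _ => imp_congr_right fun h0 => ?_
    rw [h.2 fun e => h0 (by rwa [e, add_eq_left] at h3)]

end Vale.Agent.P329
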