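import Mathlib

/-! Generalized regular expressions and their star height. -/

namespace Vale.Agent.P329

/-- Generalized regular expressions over the alphabet `A`. -/
inductive GRE (A : Type) : Type
  | zero : GRE A
  | one : GRE A
  | letter : A → GRE A
  | union : GRE A → GRE A → GRE A
  | concat : GRE A → GRE A → GRE A
  | compl : GRE A → GRE A
  | star : GRE A → GRE A

/-- The language denoted by an expression; complements are taken in the set of all words. -/
def GRE.lang {A : Type} : GRE A → Language A
  | .zero => 0
  | .one => 1
  | .letter a => {[a]}
  | .union P Q => P.lang + Q.lang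
  | .concat P Q => P.lang * Q.lang
  | .compl P => {w | w ∉ P.lang}
  | .star P => KStar.kstar P.lang

/-- The star height of an expression. -/
def GRE.sh {A : Type} : GRE A → ℕ
  | .zero => 0
  | .one => 0
  | .letter _ => 0
  | .union P Q => max P.sh Q.sh
  | .concat P Q => max P.sh Q.sh
  | .compl P => P.sh
  | .star P => P.sh + 1

end Vale.Agent.P329
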