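import Vale.Agent.P329.Arrow

/-! Groups which are abelian by elementary abelian. -/

namespace Vale.Agent.P329
open Classical

variable {A : Type} [Finite A] {p : ℕ} [Fact p.Prime]

section
variable {V : Type} [AddCommGroup V] [Module (ZMod p) V] [Finite V] (ρ : A → V)

omit [Finite A] [Finite V] in
theorem vec_rel (l : Module.Dual (ZMod p) V) (a : A) (q : ZMod p) (w : List A) :
    arr (fun x => l (ρ x)) (0, none) a q w =
      cnt (fun c x => c + ρ x) (fun c x => if x = a ∧ l c = q then 1 else 0) 0 w ∧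
    (w.foldl (tm fun x => l (ρ x)) (0, none)).1 = l (w.foldl (fun c x => c + ρ x) 0) :=
  cnt_rel (tm fun x => l (ρ x)) (fun c x => c + ρ x) (fun c c' => c.1 = l c')
    (fun c c' x h => by simp [tm, h]) (fun c c' x h => by rw [h]) w (by simp)

omit [Finite A] in
theorem finite_dual : Finite (Module.Dual (ZMod p) V) :=
  Finite.of_injective (fun l : Module.Dual (ZMod p) V => (l : V → ZMod p)) DFunLike.coe_injective

include p in
theorem fn_vec : Fn 1 fun w : List A => w.foldl (fun c x => c + ρ x) 0 := by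
  haveI := finite_dual (p := p) (V := V)
  refine (Fn.pi fun l : Module.Dual (ZMod p) V => fn_tm (fun x => l (ρ x)) (0, none)).of_det
    fun w w' e => ?_
  refine sub_eq_zero.1 ((Module.forall_dual_apply_eq_zero_iff (ZMod p) _).1 fun l => ?_)
  obtain ⟨⟨a⟩⟩ | h := isEmpty_or_nonempty A
  · cases w with
    | cons x _ => exact (a x).elim
    | nil => cases w' with
      | cons x _ => exact (a x).elim
      | nil => simp
  · rw [map_sub, ← (vec_rel ρ l h.some 0 w).2, ← (vec_rel ρ l h.some 0 w').2, congrFun e l, sub_self]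

omit [Finite A] in
theorem card_ker [Fintype (Module.Dual (ZMod p) V)] {v : V} (hv : v ≠ 0) :
    (Finset.univ.filter fun l : Module.Dual (ZMod p) V => l v = 0).card * p =
      Fintype.card (Module.Dual (ZMod p) V) := by
  let f := (Module.Dual.eval (ZMod p) V v).toAddMonoidHom
  obtain ⟨l, hl⟩ := not_forall.1 (mt (Module.forall_dual_apply_eq_zero_iff (ZMod p) v).1 hv)
  have h1 : f.range = ⊤ := AddMonoidHom.range_eq_top.2 fun t =>
    ⟨(t / l v) • l, by simp [f, div_mul_cancel₀ _ hl]⟩
  have h2 := f.ker.card_mul_index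
  rw [AddSubgroup.index_ker, h1, AddSubgroup.card_top, Nat.card_zmod,
    Nat.card_eq_fintype_card (α := Module.Dual _ _)] at h2
  rw [← h2, ← Fintype.card_subtype, ← Nat.card_eq_fintype_card]
  rfl

include p in
theorem fnM_vec (a : A) (h : V) :
    FnM (cnt (fun c x => c + ρ x) (fun c x => if x = a ∧ c = h then 1 else 0) 0) := by
  haveI := finite_dual (p := p) (V := V)
  haveI := Fintype.ofFinite (Module.Dual (ZMod p) V)
  set n := Fintype.card (Module.Dual (ZMod p) V)
  have h1 : n / p < n := Nat.div_lt_self Fintype.card_pos (Fact.out : p.Prime).one_lt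
  refine FnM.cancel (m := n - n / p) (by omega) ((fnM_count a).mul (n / p))
    (fnM_sum Finset.univ fun l : Module.Dual (ZMod p) V => fun _ =>
      fnM_arr (fun x => l (ρ x)) (0, none) a (l h)) fun w => ?_
  simp only [(vec_rel ρ _ a _ w).1]
  rw [← cnt_sum, ← cnt_count (fun c x => c + ρ x) a 0, ← cnt_mul, ← cnt_mul, ← cnt_add]
  congr 1
  funext c x
  by_cases e1 : x = a
  · by_cases e2 : c = h
    · simp [e1, e2, Nat.sub_add_cancel h1.le, n]
    · have := card_ker (p := p) (sub_ne_zero.2 e2)
      simp only [map_sub, sub_eq_zero] at this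
      simp [e1, e2, n, ← this, (Fact.out : p.Prime).pos]
  · simp [e1]

end

/-- Product of the labels along a run. -/
def acc {C M : Type} [Monoid M] (nx : C → A → C) (n : C → A → M) : C → List A → M
  | _, [] => 1
  | c, a :: w => n c a * acc nx n (nx c a) w

theorem fn_acc {C M : Type} [Finite C] [CommGroup M] [Finite M] (nx : C → A → C) (n : C → A → M)
    (c₀ : C) (h : ∀ a c, FnM (cnt nx (fun c' x => if x = a ∧ c' = c then 1 else 0) c₀)) :
    Fn 1 (acc nx n c₀) := by
  haveI := Fintype.ofFinite (A × C)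
  have key : ∀ w c, acc nx n c w =
      ∏ z : A × C, n z.2 z.1 ^ cnt nx (fun c' x => if x = z.1 ∧ c' = z.2 then 1 else 0) c w := by
    intro w
    induction w with
    | nil => simp [acc, cnt]
    | cons a w ih =>
      intro c
      simp only [acc, cnt, ih, pow_add, Finset.prod_mul_distrib]
      congr 1
      rw [Finset.prod_eq_single (a, c) (fun z _ hz => by
        rw [if_neg fun e => hz (Prod.ext e.1.symm e.2.symm), pow_zero]) (by simp)]
      simp
  haveI : NeZero (Nat.card M) := ⟨Nat.card_pos.ne'⟩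
  refine (Fn.pi fun z : A × C => h z.1 z.2 (Nat.card M) Nat.card_pos.ne').of_det fun w w' e => ?_
  rw [key, key]
  refine Finset.prod_congr rfl fun z _ => ?_
  rw [← pow_mod_natCard, (ZMod.natCast_eq_natCast_iff' _ _ _).1 (congrFun e z), pow_mod_natCard]

theorem fn_grp {G : Type} [Group G] [Finite G] (N : Subgroup G) [N.Normal]
    (h1 : ∀ x ∈ N, ∀ y ∈ N, x * y = y * x) (h2 : ∀ x y : G, x * y * x⁻¹ * y⁻¹ ∈ N)
    (h3 : ∀ x : G, x ^ p ∈ N) (g : A → G) : Fn 1 fun w : List A => (w.map g).prod := by
  letI : CommGroup N := { mul_comm := fun x y => Subtype.ext (h1 x x.2 y y.2) }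
  have h4 : ∀ x y : G ⧸ N, x * y = y * x := fun x y => by
    obtain ⟨x, rfl⟩ := QuotientGroup.mk_surjective x
    obtain ⟨y, rfl⟩ := QuotientGroup.mk_surjective y
    refine QuotientGroup.eq.2 ?_
    simpa [mul_assoc] using h2 y⁻¹ x⁻¹
  letI : CommGroup (G ⧸ N) := { mul_comm := h4 }
  haveI : NeZero p := ⟨(Fact.out : p.Prime).ne_zero⟩
  letI : Module (ZMod p) (Additive (G ⧸ N)) := AddCommGroup.zmodModule fun x => by
    obtain ⟨y, hy⟩ := QuotientGroup.mk_surjective x.toMul
    refine Additive.toMul.injective ?_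
    rw [toMul_nsmul, ← hy]
    exact (QuotientGroup.eq_one_iff _).2 (h3 y)
  let ρ : A → Additive (G ⧸ N) := fun x => Additive.ofMul (g x : G ⧸ N)
  let τ : Additive (G ⧸ N) → G := fun c => c.toMul.out
  let n : Additive (G ⧸ N) → A → N := fun c x => ⟨τ c * g x * (τ (c + ρ x))⁻¹,
    (QuotientGroup.eq_one_iff _).1 (by simp [τ, ρ])⟩
  have key : ∀ (w : List A) c, τ c * (w.map g).prod =
      (acc (fun c x => c + ρ x) n c w : N) * τ (w.foldl (fun c x => c + ρ x) c) := by
    intro w
    induction w with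
    | nil => simp [acc]
    | cons a w ih =>
      intro c
      simp only [acc, List.map_cons, List.prod_cons, List.foldl_cons, Subgroup.coe_mul, mul_assoc,
        ← ih]
      simp [n, mul_assoc]
  refine ((fn_acc _ n 0 (fnM_vec (p := p) ρ)).prod (fn_vec (p := p) ρ)).of_det fun w w' e => ?_
  obtain ⟨e1, e2⟩ := Prod.mk.inj e
  refine mul_left_cancel (a := τ 0) ?_
  rw [key, key, e1, e2]

end Vale.Agent.P329
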