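import Vale.Agent.P329.Basic

/-! Counter-free automata recognize star-free languages. -/

namespace Vale.Agent.P329
open Classical

variable {A T : Type}

/-- Blocks joined by the separator `c`. -/
def J (c : A) (vs : List (List A)) : List A := (vs.map (· ++ [c])).flatten

theorem J_nil (c : A) : J c [] = [] := rfl

theorem J_cons (c : A) (v : List A) (vs : List (List A)) : J c (v :: vs) = v ++ c :: J c vs := by
  simp [J]

theorem J_append (c : A) (us vs : List (List A)) : J c (us ++ vs) = J c us ++ J c vs := by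
  simp [J]

theorem sch_split {c : A} : ∀ {u v x y : List A}, c ∉ u → c ∉ v → u ++ c :: x = v ++ c :: y →
    u = v ∧ x = y
  | [], [], _, _, _, _, h => ⟨rfl, (List.cons.inj h).2⟩
  | [], b :: _, _, _, _, hv, h => absurd ((List.cons.inj h).1 ▸ List.mem_cons_self) hv
  | a :: _, [], _, _, hu, _, h => absurd ((List.cons.inj h).1 ▸ List.mem_cons_self) hu
  | a :: u, b :: v, x, y, hu, hv, h => by
    obtain ⟨h1, h2⟩ := List.cons.inj h
    obtain ⟨h3, h4⟩ := sch_split (fun h => hu (List.mem_cons_of_mem _ h))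
      (fun h => hv (List.mem_cons_of_mem _ h)) h2
    exact ⟨by rw [h1, h3], h4⟩

theorem J_inj {c : A} : ∀ {us vs : List (List A)}, (∀ v ∈ us, c ∉ v) → (∀ v ∈ vs, c ∉ v) →
    J c us = J c vs → us = vs
  | [], [], _, _, _ => rfl
  | [], v :: vs, _, _, h => by simp [J_nil, J_cons] at h
  | u :: us, [], _, _, h => by simp [J_nil, J_cons] at h
  | u :: us, v :: vs, hu, hv, h => by
    rw [J_cons, J_cons] at h
    obtain ⟨h1, h2⟩ := sch_split (hu u List.mem_cons_self) (hv v List.mem_cons_self) h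
    rw [h1, J_inj (fun x hx => hu x (List.mem_cons_of_mem _ hx))
      (fun x hx => hv x (List.mem_cons_of_mem _ hx)) h2]

theorem exists_J (c : A) (w : List A) : ∃ vs v, w = J c vs ++ v ∧ c ∉ v ∧ ∀ u ∈ vs, c ∉ u := by
  induction w using List.reverseRecOn with
  | nil => exact ⟨[], [], rfl, by simp, by simp⟩
  | append_singleton w a ih =>
    obtain ⟨vs, v, rfl, h1, h2⟩ := ih
    by_cases h : a = c
    · refine ⟨vs ++ [v], [], by simp [J_append, J_cons, J_nil, h], by simp, fun u hu => ?_⟩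
      rcases List.mem_append.1 hu with hu | hu
      · exact h2 u hu
      · rwa [List.mem_singleton.1 hu]
    · exact ⟨vs, v ++ [a], by simp, by simp [h1, Ne.symm h], h2⟩

theorem mem_J {c a : A} {vs : List (List A)} (h : a ∈ J c vs) : a = c ∨ ∃ v ∈ vs, a ∈ v := by
  simp only [J, List.mem_flatten, List.mem_map] at h
  obtain ⟨_, ⟨v, hv, rfl⟩, h⟩ := h
  rcases List.mem_append.1 h with h | h
  · exact Or.inr ⟨v, hv, h⟩
  · exact Or.inl (List.mem_singleton.1 h)

theorem mem_J_of {c a : A} {vs : List (List A)} {v : List A} (hv : v ∈ vs) (h : a ∈ v) :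
    a ∈ J c vs := by
  simp only [J, List.mem_flatten, List.mem_map]
  exact ⟨_, ⟨v, hv, rfl⟩, List.mem_append_left _ h⟩

/-- Substitution of classes of blocks for letters preserves star-freeness. -/
theorem sch_sub [Finite A] {c : A} {B : Finset A} (hc : c ∉ B) (cls : List A → T)
    (hcls : ∀ t, Ht 0 fun v => (∀ a ∈ v, a ∈ B) ∧ cls v = t) {K : List T → Prop} (hK : Ht 0 K) :
    Ht 0 fun w => ∃ vs : List (List A), (∀ v ∈ vs, ∀ a ∈ v, a ∈ B) ∧ K (vs.map cls) ∧ w = J c vs := by
  obtain ⟨E, hE, hK⟩ := hK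
  simp only [← hK]
  clear hK K
  induction E with
  | zero => exact ht_false.congr fun w => ⟨False.elim, fun ⟨_, _, h, _⟩ => h⟩
  | one =>
    refine ht_nil.congr fun w => ⟨fun h => ⟨[], by simp, rfl, h⟩, fun ⟨vs, _, h, e⟩ => ?_⟩
    rw [e, List.map_eq_nil_iff.1 h, J_nil]
  | letter t =>
    refine ((hcls t).cat (ht_letter c)).congr fun w => ⟨?_, ?_⟩
    · rintro ⟨u, _, ⟨h1, h2⟩, rfl, rfl⟩
      exact ⟨[u], by simpa using h1, show [cls u] = [t] by rw [h2], by simp [J_cons, J_nil]⟩
    · rintro ⟨vs, h1, h2, rfl⟩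
      obtain ⟨u, rfl, hu⟩ := List.map_eq_singleton_iff.1 h2
      exact ⟨u, [c], ⟨h1 u (by simp), hu⟩, rfl, by simp [J_cons, J_nil]⟩
  | union P Q ihP ihQ =>
    refine ((ihP (le_of_max_le_left hE)).or (ihQ (le_of_max_le_right hE))).congr fun w => ⟨?_, ?_⟩
    · rintro (⟨vs, h1, h2, h3⟩ | ⟨vs, h1, h2, h3⟩)
      · exact ⟨vs, h1, Or.inl h2, h3⟩
      · exact ⟨vs, h1, Or.inr h2, h3⟩
    · rintro ⟨vs, h1, h2 | h2, h3⟩
      · exact Or.inl ⟨vs, h1, h2, h3⟩
      · exact Or.inr ⟨vs, h1, h2, h3⟩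
  | concat P Q ihP ihQ =>
    refine ((ihP (le_of_max_le_left hE)).cat (ihQ (le_of_max_le_right hE))).congr fun w => ⟨?_, ?_⟩
    · rintro ⟨_, _, ⟨us, h1, h2, rfl⟩, ⟨vs, h3, h4, rfl⟩, rfl⟩
      refine ⟨us ++ vs, fun v hv => (List.mem_append.1 hv).elim (h1 v) (h3 v), ?_,
        (J_append c us vs).symm⟩
      rw [List.map_append]
      exact Language.append_mem_mul h2 h4
    · rintro ⟨vs, h1, h2, rfl⟩
      obtain ⟨x, hx, y, hy, e⟩ := Language.mem_mul.1 h2
      obtain ⟨us, us', rfl, rfl, rfl⟩ := List.map_eq_append_iff.1 e.symm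
      exact ⟨_, _, ⟨us, fun v hv => h1 v (List.mem_append_left _ hv), hx, rfl⟩,
        ⟨us', fun v hv => h1 v (List.mem_append_right _ hv), hy, rfl⟩, J_append c us us'⟩
  | compl P ih =>
    have nc : ∀ {vs : List (List A)}, (∀ v ∈ vs, ∀ a ∈ v, a ∈ B) → ∀ v ∈ vs, c ∉ v :=
      fun h v hv hcv => hc (h v hv c hcv)
    refine (((ht_over (insert c B)).and (ht_nil.or ((ht_const True).cat (ht_letter c)))).and
      (ih hE).not).congr fun w => ⟨?_, ?_⟩
    · rintro ⟨⟨h1, h2⟩, h3⟩
      obtain ⟨vs, v, rfl, h4, h5⟩ := exists_J c w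
      have hv : v = [] := by
        rcases h2 with h2 | ⟨u, _, _, rfl, h2⟩
        · exact (List.append_eq_nil_iff.1 h2).2
        · rcases v.eq_nil_or_concat with rfl | ⟨v, a, rfl⟩
          · rfl
          · rw [List.concat_eq_append, ← List.append_assoc] at h2
            exact absurd (by simp [(List.append_inj' h2 rfl).2]) h4
      subst hv
      have h6 : ∀ v ∈ vs, ∀ a ∈ v, a ∈ B := fun v hv a ha =>
        (Finset.mem_insert.1 (h1 a (List.mem_append_left _ (mem_J_of hv ha)))).resolve_left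
          fun e => h5 v hv (e ▸ ha)
      exact ⟨vs, h6, fun h => h3 ⟨vs, h6, h, by simp⟩, by simp⟩
    · rintro ⟨vs, h1, h2, rfl⟩
      refine ⟨⟨fun a ha => ?_, ?_⟩, fun ⟨us, h3, h4, e⟩ => h2 (J_inj (nc h1) (nc h3) e ▸ h4)⟩
      · rcases mem_J ha with rfl | ⟨v, hv, ha⟩
        · exact Finset.mem_insert_self _ _
        · exact Finset.mem_insert_of_mem (h1 v hv a ha)
      · rcases vs.eq_nil_or_concat with rfl | ⟨vs, v, rfl⟩
        · exact Or.inl rfl
        · exact Or.inr ⟨J c vs ++ v, [c], trivial, rfl, by simp [J_append, J_cons, J_nil]⟩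
  | star P _ => exact absurd hE (by simp [GRE.sh])

/-- Counter-freeness on words over `B`. -/
def CF {Q : Type} (δ : Q → A → Q) (B : Finset A) : Prop :=
  ∀ (w : List A) (q : Q) (n : ℕ), (∀ a ∈ w, a ∈ B) → (fun x => w.foldl δ x)^[n + 1] q = q →
    w.foldl δ q = q

theorem sch_aux (m : ℕ) : ∀ (Q A : Type) [Finite Q] [Finite A] (δ : Q → A → Q) (B : Finset A),
    Nat.card Q ≤ m → CF δ B → ∀ q q', Ht 0 fun w => (∀ a ∈ w, a ∈ B) ∧ w.foldl δ q = q' := by
  induction m with
  | zero =>
    intro Q A _ _ δ B h _ q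
    haveI : Nonempty Q := ⟨q⟩
    exact absurd (Nat.card_pos (α := Q)) (by omega)
  | succ m ihm =>
    intro Q A _ _ δ B hQ
    induction B using Finset.strongInduction with
    | H B ihB =>
    intro hB q q'
    by_cases hs : ∀ c ∈ B, Function.Surjective fun x => δ x c
    · have hid : ∀ c ∈ B, ∀ x, δ x c = x := by
        intro c hc x
        have hi := Finite.injective_iff_surjective.2 (hs c hc)
        obtain ⟨n, hn, e⟩ := Function.mem_periodicPts.1 (hi.mem_periodicPts x)
        obtain ⟨n, rfl⟩ : ∃ k, n = k + 1 := ⟨n - 1, by omega⟩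
        exact hB [c] x n (by simpa using hc) e
      have : ∀ w : List A, (∀ a ∈ w, a ∈ B) → w.foldl δ q = q := by
        intro w
        induction w with
        | nil => exact fun _ => rfl
        | cons a w ih =>
          intro h
          rw [List.foldl_cons, hid a (h a List.mem_cons_self),
            ih fun b hb => h b (List.mem_cons_of_mem _ hb)]
      exact ((ht_over B).and (ht_const (q = q'))).congr fun w =>
        and_congr_right fun h => by rw [this w h]
    · push Not at hs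
      obtain ⟨c, hc, hs⟩ := hs
      let B' := B.erase c
      have sub : ∀ {w : List A}, (∀ a ∈ w, a ∈ B') → ∀ a ∈ w, a ∈ B :=
        fun h a ha => Finset.mem_of_mem_erase (h a ha)
      have ih := ihB B' (Finset.erase_ssubset hc) fun w x n h => hB w x n (sub h)
      let cls : List A → Q → Q := fun v x => v.foldl δ x
      have hcls : ∀ t, Ht 0 fun v => (∀ a ∈ v, a ∈ B') ∧ cls v = t := fun t =>
        ((ht_over B').and (ht_forall fun x => ih x (t x))).congr fun v => and_congr_right fun h =>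
          ⟨fun h' => funext fun x => (h' x).2, fun h' x => ⟨h, congrFun h' x⟩⟩
      let Q' := Set.range fun x => δ x c
      let δ' : Q' → (Q → Q) → Q' := fun x t => ⟨δ (t x.1) c, _, rfl⟩
      haveI := Fintype.ofFinite (Q → Q)
      let T' : Finset (Q → Q) := {t | ∃ v, (∀ a ∈ v, a ∈ B') ∧ cls v = t}
      have key : ∀ (vs : List (List A)) (x : Q'),
          ((vs.map cls).foldl δ' x).1 = (J c vs).foldl δ x.1 := by
        intro vs
        induction vs with
        | nil => exact fun _ => rfl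
        | cons v vs ih => intro x; rw [List.map_cons, List.foldl_cons, ih, J_cons]; simp [δ', cls]
      have hJ : ∀ {vs : List (List A)}, (∀ v ∈ vs, ∀ a ∈ v, a ∈ B') → ∀ a ∈ J c vs, a ∈ B := by
        intro vs h a ha
        rcases mem_J ha with rfl | ⟨v, hv, ha⟩
        · exact hc
        · exact sub (h v hv) a ha
      have hQ' : Nat.card Q' ≤ m := by
        have : Nat.card Q' < Nat.card Q := Finite.card_subtype_lt (x := (not_forall.1 hs).choose)
          (not_forall.1 hs).choose_spec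
        omega
      have ih2 := ihm Q' (Q → Q) δ' T' hQ' fun ts x n h e => by
        obtain ⟨vs, rfl, hvs⟩ : ∃ vs : List (List A), ts = vs.map cls ∧
            ∀ v ∈ vs, ∀ a ∈ v, a ∈ B' := by
          clear e
          induction ts with
          | nil => exact ⟨[], rfl, by simp⟩
          | cons t ts ih =>
            obtain ⟨vs, rfl, hvs⟩ := ih fun a ha => h a (List.mem_cons_of_mem _ ha)
            obtain ⟨v, hv, rfl⟩ := (Finset.mem_filter.1 (h t List.mem_cons_self)).2
            exact ⟨v :: vs, rfl, List.forall_mem_cons.2 ⟨hv, hvs⟩⟩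
        refine Subtype.ext ((key vs x).trans (hB _ x.1 n (hJ hvs) ?_))
        have := Function.Semiconj.iterate_right (f := Subtype.val)
          (ga := fun x => (vs.map cls).foldl δ' x) (gb := fun x => (J c vs).foldl δ x) (key vs)
          (n + 1) x
        rw [← this, e]
      refine ((ih q q').or (ht_exists fun x : Q => ht_exists fun y : Q' => (ih q x).cat
        ((ht_letter c).cat ((sch_sub (Finset.notMem_erase c B) cls hcls
          (ih2 ⟨δ x c, x, rfl⟩ y)).cat (ih y.1 q'))))).congr fun w => ⟨?_, ?_⟩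
      · rintro (⟨h1, h2⟩ | ⟨x, y, u, _, ⟨h1, h2⟩, ⟨_, _, rfl, ⟨_, v, ⟨vs, h3, ⟨_, h4⟩, rfl⟩,
          ⟨h5, h6⟩, rfl⟩, rfl⟩, rfl⟩)
        · exact ⟨sub h1, h2⟩
        · refine ⟨fun a ha => ?_, ?_⟩
          · simp only [List.mem_append, List.mem_singleton] at ha
            rcases ha with ha | rfl | ha | ha
            exacts [sub h1 a ha, hc, hJ h3 a ha, sub h5 a ha]
          · have := key vs ⟨δ x c, x, rfl⟩
            rw [h4] at this
            simp only [List.foldl_append, List.foldl_cons, List.foldl_nil, h2, ← this, h6]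
      · rintro ⟨h1, h2⟩
        obtain ⟨vs, v, rfl, h4, h5⟩ := exists_J c w
        have hv : ∀ a ∈ v, a ∈ B' := fun a ha => Finset.mem_erase.2
          ⟨fun e => h4 (e ▸ ha), h1 a (List.mem_append_right _ ha)⟩
        have hvs : ∀ u ∈ vs, ∀ a ∈ u, a ∈ B' := fun u hu a ha => Finset.mem_erase.2
          ⟨fun e => h5 u hu (e ▸ ha), h1 a (List.mem_append_left _ (mem_J_of hu ha))⟩
        rcases vs with _ | ⟨u, vs⟩
        · exact Or.inl ⟨hv, h2⟩
        · have hvs' := fun x hx => hvs x (List.mem_cons_of_mem _ hx)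
          refine Or.inr ⟨u.foldl δ q, (vs.map cls).foldl δ' ⟨_, u.foldl δ q, rfl⟩, u,
            [c] ++ (J c vs ++ v), ⟨hvs u List.mem_cons_self, rfl⟩, ⟨_, _, rfl, ⟨_, v, ⟨vs, hvs',
              ⟨fun t ht => ?_, rfl⟩, rfl⟩, ⟨hv, ?_⟩, rfl⟩, rfl⟩, by simp [J_cons]⟩
          · obtain ⟨x, hx, rfl⟩ := List.mem_map.1 ht
            exact Finset.mem_filter.2 ⟨Finset.mem_univ _, x, hvs' x hx, rfl⟩
          · rw [key, ← h2, J_cons]; simp

theorem schutz {Q : Type} [Finite Q] [Finite A] (δ : Q → A → Q)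
    (h : ∀ (w : List A) (q : Q) (n : ℕ), (fun x => w.foldl δ x)^[n + 1] q = q → w.foldl δ q = q)
    (q : Q) : Fn 0 fun w : List A => w.foldl δ q := fun q' => by
  haveI := Fintype.ofFinite A
  exact (sch_aux _ Q A δ Finset.univ le_rfl (fun w x n _ => h w x n) q q').congr fun w => by simp

end Vale.Agent.P329
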