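import Vale.Agent.P329.Sch

/-! Automata that become counter-free when one state is removed. -/

namespace Vale.Agent.P329
open Classical

variable {A Q : Type}

/-- The automaton in which entering the state `b` is fatal. -/
noncomputable def punct (δ : Q → A → Q) (b : Q) : Option Q → A → Option Q
  | none, _ => none
  | some q, a => if δ q a = b then none else some (δ q a)

theorem punct_none (δ : Q → A → Q) (b : Q) (w : List A) : w.foldl (punct δ b) none = none := by
  induction w with
  | nil => rfl
  | cons a w ih => exact ih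

/-- The run from `q` along `w` does not enter `b`. -/
def Alive (δ : Q → A → Q) (b : Q) : Q → List A → Prop
  | _, [] => True
  | q, a :: w => δ q a ≠ b ∧ Alive δ b (δ q a) w

theorem punct_some {δ : Q → A → Q} {b : Q} {w : List A} {q q' : Q} :
    w.foldl (punct δ b) (some q) = some q' ↔ Alive δ b q w ∧ w.foldl δ q = q' := by
  induction w generalizing q with
  | nil => simp [Alive]
  | cons a w ih =>
    by_cases h : δ q a = b
    · simp [Alive, punct, h, punct_none]
    · simp [Alive, punct, h, ih]

theorem alive_append {δ : Q → A → Q} {b : Q} {u v : List A} {q : Q} :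
    Alive δ b q (u ++ v) ↔ Alive δ b q u ∧ Alive δ b (u.foldl δ q) v := by
  induction u generalizing q with
  | nil => simp [Alive]
  | cons a u ih => simp [Alive, ih, and_assoc]

/-- The `n`-th power of a word. -/
def wp (w : List A) : ℕ → List A
  | 0 => []
  | n + 1 => wp w n ++ w

theorem foldl_wp {X : Type} (δ : X → A → X) (w : List A) (n : ℕ) (x : X) :
    (wp w n).foldl δ x = (fun x => w.foldl δ x)^[n] x := by
  induction n with
  | zero => rfl
  | succ n ih => rw [wp, List.foldl_append, ih, Function.iterate_succ_apply']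

theorem wp_add (w : List A) (m n : ℕ) : wp w (m + n) = wp w m ++ wp w n := by
  induction n with
  | zero => simp [wp]
  | succ n ih => rw [← add_assoc, wp, wp, ih, List.append_assoc]

theorem mem_wp {w : List A} {n : ℕ} {a : A} (h : a ∈ wp w n) : a ∈ w := by
  induction n with
  | zero => simp [wp] at h
  | succ n ih => exact (List.mem_append.1 h).elim ih id

theorem fn_one [Finite Q] [Finite A] (δ : Q → A → Q) (b : Q)
    (h : ∀ (w : List A) (q : Q) (n : ℕ), Alive δ b q (wp w (n + 1)) →
      (wp w (n + 1)).foldl δ q = q → w.foldl δ q = q) (q₀ : Q) :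
    Fn 1 fun w : List A => w.foldl δ q₀ := by
  have hS : ∀ q q', Ht 0 fun w : List A => Alive δ b q w ∧ w.foldl δ q = q' := by
    intro q q'
    refine (schutz (punct δ b) (fun w x n e => ?_) (some q) (some q')).congr fun w => punct_some
    rcases x with _ | x
    · exact punct_none δ b w
    · rw [← foldl_wp, punct_some] at e
      refine punct_some.2 ⟨?_, h w x n e.1 e.2⟩
      have := e.1
      rw [add_comm, wp_add, alive_append] at this
      simpa [wp] using this.1
  let P : Q → List A → Prop := fun q w => ∃ x a, δ x a = b ∧ ∃ u v,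
    (Alive δ b q u ∧ u.foldl δ q = x) ∧ v = [a] ∧ w = u ++ v
  have hP : ∀ q, Ht 0 (P q) := fun q => ht_exists fun x => ht_exists fun a =>
    (ht_const _).and ((hS q x).cat (ht_letter a))
  have eP : ∀ q w, P q w → w.foldl δ q = b := by
    rintro q _ ⟨x, a, h1, u, _, ⟨_, h2⟩, rfl, rfl⟩
    simp [h1, h2]
  intro q'
  refine (((hS q₀ q').mono (Nat.zero_le 1)).or (((hP q₀).mono (Nat.zero_le 1)).cat
    ((hP b).star.cat ((hS b q').mono (Nat.zero_le 1))))).congr fun w => ⟨?_, ?_⟩
  · rintro (h1 | ⟨u, _, h1, ⟨_, v, ⟨S, rfl, h2⟩, ⟨_, h3⟩, rfl⟩, rfl⟩)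
    · exact h1.2
    · have : S.flatten.foldl δ b = b := by
        induction S with
        | nil => rfl
        | cons y S ih =>
          rw [List.flatten_cons, List.foldl_append, eP b y (h2 y List.mem_cons_self),
            ih fun z hz => h2 z (List.mem_cons_of_mem _ hz)]
      simp only [List.foldl_append, eP q₀ u h1, this, h3]
  · rintro rfl
    induction w using List.reverseRecOn with
    | nil => exact Or.inl ⟨trivial, rfl⟩
    | append_singleton w a ih =>
      simp only [List.foldl_append, List.foldl_cons, List.foldl_nil]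
      rcases ih with h1 | ⟨u, _, h1, ⟨_, v, ⟨S, rfl, h2⟩, ⟨h3, h4⟩, rfl⟩, e⟩
      · by_cases hb : δ (w.foldl δ q₀) a = b
        · exact Or.inr ⟨w ++ [a], [], ⟨_, a, hb, w, _, ⟨h1.1, rfl⟩, rfl, rfl⟩,
            ⟨[], [], ⟨[], rfl, by simp⟩, ⟨trivial, hb.symm⟩, rfl⟩, by simp⟩
        · exact Or.inl ⟨alive_append.2 ⟨h1.1, hb, trivial⟩, by simp⟩
      · by_cases hb : δ (w.foldl δ q₀) a = b
        · refine Or.inr ⟨u, _, h1, ⟨(S ++ [v ++ [a]]).flatten, [], ⟨_, rfl, fun y hy => ?_⟩,
            ⟨trivial, hb.symm⟩, rfl⟩, by simp [e]⟩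
          rcases List.mem_append.1 hy with hy | hy
          · exact h2 y hy
          · exact ⟨_, a, hb, v, _, ⟨h3, h4⟩, rfl, List.mem_singleton.1 hy⟩
        · refine Or.inr ⟨u, _, h1, ⟨S.flatten, v ++ [a], ⟨S, rfl, h2⟩,
            ⟨alive_append.2 ⟨h3, by rwa [h4], trivial⟩, by simp [h4]⟩, rfl⟩, by simp [e]⟩

end Vale.Agent.P329
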